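import Vale.Agent.P253.H577.Final

open scoped Manifold ContDiff Bundle
open Bundle Vale.Agent.P253.Mfd Vale.Agent.P253.H577

namespace Vale.Agent.Results.P253.ToricUniformization

/-- Let `M` be a complete connected Kähler manifold of complex dimension `n` with a locally
effective action of the vector group `V = ℝ^n` by holomorphic isometries (for instance an effective
action of the torus `T^n`) which has an isotropic orbit. (1) If the holomorphic sectional curvature
is positive, the action has a fixed point, with linearly independent weights. (2) If `M` is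
noncompact and the bisectional curvature is positive, the fixed point is unique and `M` is
biholomorphic to `ℂ^n = T_p M`, equivariantly for the linear action of `V`, and the metric is at
most the flat metric `g_p` in these coordinates. -/
theorem result {E : Type*} [NormedAddCommGroup E] [NormedSpace ℂ E] [FiniteDimensional ℂ E]
    {M : Type*} [MetricSpace M] [ChartedSpace E M]
    [IsManifold 𝓘(ℂ, E) 1 M] [IsManifold 𝓘(ℝ, E) ∞ M]
    [RiemannianBundle (fun x : M => TangentSpace 𝓘(ℝ, E) x)]
    [IsContMDiffRiemannianBundle 𝓘(ℝ, E) ∞ E (fun x : M => TangentSpace 𝓘(ℝ, E) x)]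
    [IsRiemannianManifold 𝓘(ℝ, E) M] [CompleteSpace M] [ConnectedSpace M] (hK : IsKahler E M)
    {V : Type*} [NormedAddCommGroup V] [NormedSpace ℝ V] [FiniteDimensional ℝ V]
    (hdim : Module.finrank ℝ V = Module.finrank ℂ E) (ρ : V → M → M)
    (hρ : IsHolIsomAction E ρ) (heff : IsLocallyEffective ρ)
    (hiso : ∃ x : M, IsIsotropicOrbit E ρ x) :
    ((∀ x : M, PosHolSectAt E x) → ∃ p b w, IsToricFixedPoint (E := E) ρ p b w) ∧
    (NoncompactSpace M → (∀ x : M, PosBisectionalAt E x) →
      ∃ p b w, IsToricFixedPoint (E := E) ρ p b w ∧ (∀ x, (∀ ξ, ρ ξ x = x) → x = p) ∧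
        ∃ F : M ≃ₘ^1⟮𝓘(ℂ, E), 𝓘(ℂ, E)⟯ E, F p = 0 ∧
          (∀ v : E, (mfderiv 𝓘(ℂ, E) 𝓘(ℂ, E) F p : E → E) v = v) ∧
          (∀ ξ x, F (ρ ξ x) = (mfderiv 𝓘(ℂ, E) 𝓘(ℂ, E) (ρ ξ) p : E → E) (F x)) ∧
          (∀ (x : M) (v : E), sqLen (E := E) x v ≤
            sqLen (E := E) p ((mfderiv 𝓘(ℂ, E) 𝓘(ℂ, E) F x : E → E) v)) ∧
          (∀ x y : M, dist x y ≤ √(sqLen (E := E) p (F x - F y))) ∧
          ∃ C > 0, ∀ x : M, ‖F x‖ ≤ C * Real.exp (C * dist p x)) :=
  ⟨fun hH => main_fixed hK hH hdim hρ heff hiso,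
    fun _ hpos => main_toric hK hpos hdim hρ heff hiso⟩

end Vale.Agent.Results.P253.ToricUniformization
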